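import Vale.Agent.H17.P154.Main
import Vale.Agent.H17.P154.Ferro3
import Vale.Agent.H17.P154.Ferro4
import Vale.Agent.H23.Potts.Q3Final
import Vale.Agent.H23.Potts4.Ineq4II
import Vale.Agent.H29.P154.IFinal

/-!
The three- and four-state ferromagnetic Potts channels: the Kesten–Stigum bound is tight on every
`d`-ary tree and on every Poisson Galton–Watson tree, and nonreconstruction holds at criticality.
-/

namespace Vale.Agent.Results.P154.FerroThreeFour

open Vale.Agent.H17.P154

theorem result :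
    ∀ q : ℕ, q = 3 ∨ q = 4 → ∀ lam : ℝ, 0 ≤ lam → lam ≤ 1 →
      -- rooted `d`-ary trees
      (∀ d : ℕ, 2 ≤ d →
        (Reconstruction (aRegular q lam d) ↔ 1 < d * lam ^ 2) ∧
        (Nonreconstruction (aRegular q lam d) ↔ d * lam ^ 2 ≤ 1)) ∧
      -- Poisson(`d`) Galton–Watson trees
      (∀ d : ℝ, 0 < d →
        (Reconstruction (aGW q lam (poisson d)) ↔ 1 < d * lam ^ 2) ∧
        (Nonreconstruction (aGW q lam (poisson d)) ↔ d * lam ^ 2 ≤ 1)) ∧
      -- Galton–Watson trees with any nondegenerate offspring law of mean `d`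
      (∀ (p : ℕ → ℝ) (d : ℝ), (∀ k, 0 ≤ p k) → HasSum p 1 → HasSum (fun k : ℕ => k * p k) d →
        (∃ k, 2 ≤ k ∧ 0 < p k) → d * lam ^ 2 ≤ 1 → Nonreconstruction (aGW q lam p)) := by
  rintro q (rfl | rfl) lam h0 h1
  · exact phase (scheme3 (by norm_num) Vale.Agent.H23.Potts.ineqI Vale.Agent.H23.Potts.ineqII h0 h1)
      (c := 1 / 100) (by norm_num) (by norm_num) (potts_nonneg_ferro h0 h1) (C := 6) (by norm_num)
      (fun v _ => (chi_eq3 v).le)
  · exact ferro4_phase (by norm_num) Vale.Agent.H29.P154.ineq4I Vale.Agent.H23.Potts4.ineq4II h0 h1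

end Vale.Agent.Results.P154.FerroThreeFour
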